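import Mathlib

/-!
# P225 (Yau's dimension comparison): the radial modes of rotationally symmetric manifolds

On the rotationally symmetric manifold `(ℝ^n, dr^2 + f(r)^2 g_{S^{n-1}})` (with `f(0) = 0`,
`f'(0) = 1`, `f > 0`), nonnegative Ricci curvature means that `f` is concave.  A harmonic function
is a sum of modes `φ(r) Y(θ)` with `Y` a spherical harmonic of degree `j`, where `φ` solves the
radial equation `φ'' + (n-1) (f'/f) φ' = j (j+n-2) φ / f^2` and is `O(r^j)` at the origin.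
The theorem below shows that a nonzero mode of degree `j` grows at least like `r^j`.
-/

namespace Vale.Agent.Results.P225.RadialModes

open Set Filter Topology

lemma pow_pred_mul (x : ℝ) (k : ℕ) : x * ((k : ℝ) * x ^ (k - 1)) = k * x ^ k := by
  cases k with
  | zero => simp
  | succ k => simp [pow_succ]; ring

/-- The Wronskian-type quantity `f^p r^m (r φ' - (m+1) φ)`. -/
def Wfun (p m : ℕ) (f φ φ' : ℝ → ℝ) (r : ℝ) : ℝ :=
  f r ^ p * r ^ m * (r * φ' r - (m + 1) * φ r)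

/-- Its derivative. -/
def Wder (p m : ℕ) (f f' φ φ' φ'' : ℝ → ℝ) (r : ℝ) : ℝ :=
  ((p : ℝ) * f r ^ (p - 1) * f' r * r ^ m + f r ^ p * ((m : ℝ) * r ^ (m - 1)))
      * (r * φ' r - (m + 1) * φ r)
    + f r ^ p * r ^ m * (1 * φ' r + r * φ'' r - (m + 1) * φ' r)

lemma hasDerivAt_W (p m : ℕ) (f f' φ φ' φ'' : ℝ → ℝ) (r : ℝ) (hf : HasDerivAt f (f' r) r)
    (hφ : HasDerivAt φ (φ' r) r) (hφ' : HasDerivAt φ' (φ'' r) r) :
    HasDerivAt (Wfun p m f φ φ') (Wder p m f f' φ φ' φ'' r) r := by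
  have h1 : HasDerivAt (fun r => f r ^ p) ((p : ℝ) * f r ^ (p - 1) * f' r) r := hf.pow p
  have h2 : HasDerivAt (fun r : ℝ => r ^ m) ((m : ℝ) * r ^ (m - 1)) r := hasDerivAt_pow m r
  have h3 : HasDerivAt (fun r => r * φ' r - (m + 1) * φ r)
      (1 * φ' r + r * φ'' r - (m + 1) * φ' r) r :=
    ((hasDerivAt_id r).mul hφ').sub (hφ.const_mul _)
  exact (h1.mul h2).mul h3

lemma Wder_nonneg (p m : ℕ) (f f' φ φ' φ'' : ℝ → ℝ) (r : ℝ) (hr : 0 < r) (hfpos : 0 < f r)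
    (hfle : f r ≤ r) (hf' : r * f' r ≤ f r)
    (hode : φ'' r + p * (f' r / f r) * φ' r = (m + 1) * (m + p) * φ r / (f r) ^ 2)
    (hφ : 0 ≤ φ r) :
    0 ≤ Wder p m f f' φ φ' φ'' r := by
  have hne : f r ≠ 0 := hfpos.ne'
  have hE : f r ^ 2 * φ'' r = (m + 1) * (m + p) * φ r - p * f r * f' r * φ' r := by
    field_simp at hode
    linarith
  have ha := pow_pred_mul (f r) p
  have hb := pow_pred_mul r m
  have key : r * f r ^ 2 * Wder p m f f' φ φ' φ'' r =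
      f r ^ p * r ^ m
        * ((m + 1) * φ r * (p * (r ^ 2 - r * f r * f' r) + m * (r ^ 2 - f r ^ 2))) := by
    unfold Wder
    linear_combination (r * f r * f' r * r ^ m * (r * φ' r - (m + 1) * φ r)) * ha
      + (f r ^ 2 * f r ^ p * (r * φ' r - (m + 1) * φ r)) * hb
      + (r ^ 2 * f r ^ p * r ^ m) * hE
  have h1 : r * f r * f' r ≤ r ^ 2 := by nlinarith
  have h2 : f r ^ 2 ≤ r ^ 2 := by nlinarith
  have hpos : 0 ≤ f r ^ p * r ^ m
      * ((m + 1) * φ r * (p * (r ^ 2 - r * f r * f' r) + m * (r ^ 2 - f r ^ 2))) := by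
    apply mul_nonneg (mul_nonneg (pow_nonneg hfpos.le p) (pow_nonneg hr.le m))
    apply mul_nonneg (mul_nonneg (by positivity) hφ)
    apply add_nonneg
    · exact mul_nonneg (Nat.cast_nonneg p) (by linarith)
    · exact mul_nonneg (Nat.cast_nonneg m) (by linarith)
  have hrf : 0 < r * f r ^ 2 := by positivity
  rw [← key] at hpos
  exact nonneg_of_mul_nonneg_right hpos hrf

section core

variable {p m : ℕ} {f f' φ φ' φ'' : ℝ → ℝ}
  (hf : ∀ r, 0 < r → HasDerivAt f (f' r) r)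
  (hfpos : ∀ r, 0 < r → 0 < f r)
  (hfle : ∀ r, 0 < r → f r ≤ r)
  (hf' : ∀ r, 0 < r → r * f' r ≤ f r)
  (hφ : ∀ r, 0 < r → HasDerivAt φ (φ' r) r)
  (hφ' : ∀ r, 0 < r → HasDerivAt φ' (φ'' r) r)
  (hode : ∀ r, 0 < r →
    φ'' r + p * (f' r / f r) * φ' r = (m + 1) * (m + p) * φ r / (f r) ^ 2)
  (hreg : ∃ C ε : ℝ, 0 < ε ∧ ∀ r, 0 < r → r < ε →
    |φ r| ≤ C * r ^ (m + 1) ∧ |φ' r| ≤ C * r ^ m)

include hf hfpos hfle hf' hφ hφ' hode hreg

/-- If `φ ≥ 0` on `(0, R)` then `W ≥ 0` on `(0, R)`. -/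
lemma W_nonneg (R : ℝ) (hφnn : ∀ r, 0 < r → r < R → 0 ≤ φ r) :
    ∀ r, 0 < r → r < R → 0 ≤ Wfun p m f φ φ' r := by
  have hmono : MonotoneOn (Wfun p m f φ φ') (Ioo 0 R) := by
    apply monotoneOn_of_deriv_nonneg (convex_Ioo 0 R)
    · intro r hr
      exact (hasDerivAt_W p m f f' φ φ' φ'' r (hf r hr.1) (hφ r hr.1)
        (hφ' r hr.1)).continuousAt.continuousWithinAt
    · intro r hr
      rw [interior_Ioo] at hr
      exact (hasDerivAt_W p m f f' φ φ' φ'' r (hf r hr.1) (hφ r hr.1)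
        (hφ' r hr.1)).differentiableAt.differentiableWithinAt
    · intro r hr
      rw [interior_Ioo] at hr
      rw [(hasDerivAt_W p m f f' φ φ' φ'' r (hf r hr.1) (hφ r hr.1) (hφ' r hr.1)).deriv]
      exact Wder_nonneg p m f f' φ φ' φ'' r hr.1 (hfpos r hr.1) (hfle r hr.1) (hf' r hr.1)
        (hode r hr.1) (hφnn r hr.1 hr.2)
  intro r hr hrR
  by_contra hneg
  rw [not_le] at hneg
  obtain ⟨C, ε, hε, hC⟩ := hreg
  set w := -Wfun p m f φ φ' r with hw
  have hwpos : 0 < w := by linarith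
  -- choose a small s
  set K := ((m : ℝ) + 2) * (|C| + 1) with hK
  have hKpos : 0 < K := by positivity
  set s := min (min (r / 2) (ε / 2)) (min 1 (w / (2 * K))) with hs
  have hs0 : 0 < s := by
    apply lt_min (lt_min (by linarith) (by linarith)) (lt_min one_pos (by positivity))
  have hsr : s < r := by
    have : s ≤ r / 2 := (min_le_left _ _).trans (min_le_left _ _)
    linarith
  have hsε : s < ε := by
    have : s ≤ ε / 2 := (min_le_left _ _).trans (min_le_right _ _)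
    linarith
  have hs1 : s ≤ 1 := (min_le_right _ _).trans (min_le_left _ _)
  have hsw : s ≤ w / (2 * K) := (min_le_right _ _).trans (min_le_right _ _)
  have hWs : Wfun p m f φ φ' s ≤ Wfun p m f φ φ' r :=
    hmono ⟨hs0, hsr.trans hrR⟩ ⟨hr, hrR⟩ hsr.le
  obtain ⟨hC1, hC2⟩ := hC s hs0 hsε
  have hCabs : C ≤ |C| := le_abs_self C
  have hsm : 0 < s ^ m := pow_pos hs0 m
  have hsm1 : 0 < s ^ (m + 1) := pow_pos hs0 (m + 1)
  have hV : |s * φ' s - (m + 1) * φ s| ≤ ((m : ℝ) + 2) * (|C| + 1) * s ^ (m + 1) := by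
    have h1 : |s * φ' s - (m + 1) * φ s| ≤ |s * φ' s| + |((m : ℝ) + 1) * φ s| := abs_sub _ _
    have h2 : |s * φ' s| = s * |φ' s| := by rw [abs_mul, abs_of_pos hs0]
    have h3 : |((m : ℝ) + 1) * φ s| = ((m : ℝ) + 1) * |φ s| := by
      rw [abs_mul, abs_of_pos (by positivity)]
    have h4 : s * |φ' s| ≤ s * ((|C| + 1) * s ^ m) := by
      apply mul_le_mul_of_nonneg_left _ hs0.le
      calc |φ' s| ≤ C * s ^ m := hC2
        _ ≤ (|C| + 1) * s ^ m := by
          apply mul_le_mul_of_nonneg_right _ hsm.le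
          linarith
    have h5 : ((m : ℝ) + 1) * |φ s| ≤ ((m : ℝ) + 1) * ((|C| + 1) * s ^ (m + 1)) := by
      apply mul_le_mul_of_nonneg_left _ (by positivity)
      calc |φ s| ≤ C * s ^ (m + 1) := hC1
        _ ≤ (|C| + 1) * s ^ (m + 1) := by
          apply mul_le_mul_of_nonneg_right _ hsm1.le
          linarith
    have h6 : s * ((|C| + 1) * s ^ m) = (|C| + 1) * s ^ (m + 1) := by ring
    rw [h2, h3] at h1
    rw [h6] at h4
    linarith
  have hfp : f s ^ p ≤ 1 := by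
    apply pow_le_one₀ (hfpos s hs0).le
    exact (hfle s hs0).trans hs1
  have hfp0 : 0 ≤ f s ^ p := pow_nonneg (hfpos s hs0).le p
  have hWabs : |Wfun p m f φ φ' s| ≤ K * s := by
    unfold Wfun
    rw [abs_mul, abs_mul, abs_of_nonneg hfp0, abs_of_pos hsm]
    have hsm_le : s ^ m ≤ 1 := pow_le_one₀ hs0.le hs1
    have hsm1_le : s ^ (m + 1) ≤ s := by
      rw [pow_succ]
      calc s ^ m * s ≤ 1 * s := mul_le_mul_of_nonneg_right hsm_le hs0.le
        _ = s := one_mul s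
    calc f s ^ p * s ^ m * |s * φ' s - (m + 1) * φ s|
        ≤ 1 * 1 * (((m : ℝ) + 2) * (|C| + 1) * s ^ (m + 1)) := by
          apply mul_le_mul (mul_le_mul hfp hsm_le hsm.le zero_le_one) hV (abs_nonneg _)
            (by norm_num)
      _ ≤ K * s := by
          rw [one_mul, one_mul]
          exact mul_le_mul_of_nonneg_left hsm1_le hKpos.le
  have h7 : K * s ≤ w / 2 := by
    calc K * s ≤ K * (w / (2 * K)) := mul_le_mul_of_nonneg_left hsw hKpos.le
      _ = w / 2 := by field_simp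
  have h8 := neg_abs_le (Wfun p m f φ φ' s)
  linarith

/-- If `φ ≥ 0` on `(0, R)` then `φ(r) / r^(m+1)` is nondecreasing on `(0, R)`. -/
lemma ratio_mono (R : ℝ) (hφnn : ∀ r, 0 < r → r < R → 0 ≤ φ r) :
    MonotoneOn (fun r => φ r / r ^ (m + 1)) (Ioo 0 R) := by
  have hW := W_nonneg hf hfpos hfle hf' hφ hφ' hode hreg R hφnn
  have hder : ∀ r, 0 < r → HasDerivAt (fun r => φ r / r ^ (m + 1))
      ((φ' r * r ^ (m + 1) - φ r * (((m + 1 : ℕ) : ℝ) * r ^ (m + 1 - 1))) / (r ^ (m + 1)) ^ 2) r := by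
    intro r hr
    exact (hφ r hr).fun_div (hasDerivAt_pow (m + 1) r) (pow_ne_zero _ hr.ne')
  apply monotoneOn_of_deriv_nonneg (convex_Ioo 0 R)
  · intro r hr
    exact (hder r hr.1).continuousAt.continuousWithinAt
  · intro r hr
    rw [interior_Ioo] at hr
    exact (hder r hr.1).differentiableAt.differentiableWithinAt
  · intro r hr
    rw [interior_Ioo] at hr
    rw [(hder r hr.1).deriv]
    apply div_nonneg _ (by positivity)
    have h1 := hW r hr.1 hr.2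
    unfold Wfun at h1
    have h2 : 0 < f r ^ p * r ^ m := mul_pos (pow_pos (hfpos r hr.1) p) (pow_pos hr.1 m)
    have h3 : 0 ≤ r * φ' r - (m + 1) * φ r := nonneg_of_mul_nonneg_right h1 h2
    have h4 : φ' r * r ^ (m + 1) - φ r * (((m + 1 : ℕ) : ℝ) * r ^ (m + 1 - 1))
        = r ^ m * (r * φ' r - (m + 1) * φ r) := by
      simp only [Nat.add_sub_cancel, Nat.cast_add, Nat.cast_one]
      ring
    rw [h4]
    exact mul_nonneg (pow_nonneg hr.1.le m) h3

/-- Positivity near `0` propagates to all of `(0, ∞)`. -/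
lemma pos_everywhere (hpos : ∃ ε : ℝ, 0 < ε ∧ ∀ r, 0 < r → r < ε → 0 < φ r) :
    ∀ r, 0 < r → 0 < φ r := by
  obtain ⟨ε, hε, hposε⟩ := hpos
  by_contra hcon
  simp only [not_forall, not_lt] at hcon
  obtain ⟨r1, hr1, hφr1⟩ := hcon
  set S : Set ℝ := {r | 0 < r ∧ φ r ≤ 0} with hS
  have hSne : S.Nonempty := ⟨r1, hr1, hφr1⟩
  have hSbdd : BddBelow S := ⟨0, fun r hr => hr.1.le⟩
  set r0 := sInf S with hr0
  have hεr0 : ε ≤ r0 := by
    apply le_csInf hSne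
    intro r hr
    by_contra hlt
    rw [not_le] at hlt
    exact absurd (hposε r hr.1 hlt) (not_lt.mpr hr.2)
  have hr0pos : 0 < r0 := lt_of_lt_of_le hε hεr0
  have hbelow : ∀ r, 0 < r → r < r0 → 0 < φ r := by
    intro r hr hrr0
    by_contra hle
    rw [not_lt] at hle
    have : r0 ≤ r := csInf_le hSbdd ⟨hr, hle⟩
    linarith
  have hmono := ratio_mono hf hfpos hfle hf' hφ hφ' hode hreg r0
    (fun r hr hrr0 => (hbelow r hr hrr0).le)
  set a := ε / 2 with ha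
  have ha0 : 0 < a := by positivity
  have har0 : a < r0 := by linarith
  have hφa : 0 < φ a := hbelow a ha0 har0
  -- φ ≥ φ a on [a, r0)
  have hge : ∀ r, a ≤ r → r < r0 → φ a ≤ φ r := by
    intro r har hrr0
    have hr : 0 < r := lt_of_lt_of_le ha0 har
    have h1 : φ a / a ^ (m + 1) ≤ φ r / r ^ (m + 1) := hmono ⟨ha0, har0⟩ ⟨hr, hrr0⟩ har
    have h2 : a ^ (m + 1) ≤ r ^ (m + 1) := pow_le_pow_left₀ ha0.le har _
    have h3 : 0 < a ^ (m + 1) := pow_pos ha0 _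
    have h4 : 0 < r ^ (m + 1) := pow_pos hr _
    rw [div_le_div_iff₀ h3 h4] at h1
    have h5 : φ a * a ^ (m + 1) ≤ φ a * r ^ (m + 1) := mul_le_mul_of_nonneg_left h2 hφa.le
    have h6 : φ a * a ^ (m + 1) ≤ φ r * a ^ (m + 1) := h5.trans h1
    exact le_of_mul_le_mul_right h6 h3
  -- continuity at r0
  have hcont : ContinuousAt φ r0 := (hφ r0 hr0pos).continuousAt
  have hφr0 : φ a ≤ φ r0 := by
    have htend : Tendsto φ (𝓝[<] r0) (𝓝 (φ r0)) := hcont.tendsto.mono_left nhdsWithin_le_nhds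
    have hev : ∀ᶠ r in 𝓝[<] r0, φ a ≤ φ r := by
      have : Ioo a r0 ∈ 𝓝[<] r0 := Ioo_mem_nhdsLT har0
      filter_upwards [this] with r hr
      exact hge r hr.1.le hr.2
    exact ge_of_tendsto htend hev
  have hφr0pos : 0 < φ r0 := lt_of_lt_of_le hφa hφr0
  have hev2 : ∀ᶠ r in 𝓝 r0, 0 < φ r := hcont.eventually (lt_mem_nhds hφr0pos)
  obtain ⟨δ, hδ, hδφ⟩ := Metric.eventually_nhds_iff.mp hev2
  have hall : ∀ r ∈ S, r0 + δ ≤ r := by
    intro r hr
    by_contra hlt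
    rw [not_le] at hlt
    have h1 : r0 ≤ r := csInf_le hSbdd hr
    have h2 : dist r r0 < δ := by
      rw [Real.dist_eq, abs_of_nonneg (by linarith)]
      linarith
    exact absurd (hδφ h2) (not_lt.mpr hr.2)
  have : r0 + δ ≤ r0 := le_csInf hSne hall
  linarith

/-- Core statement: `φ(r) / r^(m+1)` is nondecreasing on `(0, ∞)`. -/
lemma ratio_mono_all (hpos : ∃ ε : ℝ, 0 < ε ∧ ∀ r, 0 < r → r < ε → 0 < φ r) :
    ∀ r s, 0 < r → r ≤ s → φ r / r ^ (m + 1) ≤ φ s / s ^ (m + 1) := by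
  have hp := pos_everywhere hf hfpos hfle hf' hφ hφ' hode hreg hpos
  intro r s hr hrs
  have hmono := ratio_mono hf hfpos hfle hf' hφ hφ' hode hreg (s + 1)
    (fun r hr _ => (hp r hr).le)
  exact hmono ⟨hr, by linarith⟩ ⟨by linarith, by linarith⟩ hrs

end core

/-- **Result.**  Let `n ≥ 2`, `j ≥ 1`, and let `f` be concave on `[0, ∞)` with `f 0 = 0`, right
derivative `1` at `0` and `f > 0` on `(0, ∞)` (the warping function of a rotationally symmetric
metric `dr^2 + f(r)^2 g_{S^{n-1}}` on `ℝ^n` with nonnegative Ricci curvature).  Let `φ` solve the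
radial equation of the angular modes of degree `j`,
`φ'' + (n-1) (f'/f) φ' = j (j+n-2) φ / f^2` on `(0, ∞)`, be regular at the origin
(`φ = O(r^j)`, `φ' = O(r^(j-1))`) and positive near the origin.  Then `φ(r) / r^j` is
nondecreasing on `(0, ∞)`, and `φ` has polynomial growth of no order `k < j`. -/
theorem result (n j : ℕ) (hn : 2 ≤ n) (hj : 1 ≤ j) (f f' φ φ' φ'' : ℝ → ℝ)
    (hf0 : f 0 = 0) (hf0' : HasDerivWithinAt f 1 (Ici 0) 0)
    (hfpos : ∀ r, 0 < r → 0 < f r) (hconc : ConcaveOn ℝ (Ici 0) f)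
    (hf : ∀ r, 0 < r → HasDerivAt f (f' r) r)
    (hφ : ∀ r, 0 < r → HasDerivAt φ (φ' r) r)
    (hφ' : ∀ r, 0 < r → HasDerivAt φ' (φ'' r) r)
    (hode : ∀ r, 0 < r →
      φ'' r + ((n : ℝ) - 1) * (f' r / f r) * φ' r
        = (j : ℝ) * ((j : ℝ) + n - 2) * φ r / (f r) ^ 2)
    (hreg : ∃ C ε : ℝ, 0 < ε ∧ ∀ r, 0 < r → r < ε →
      |φ r| ≤ C * r ^ j ∧ |φ' r| ≤ C * r ^ (j - 1))
    (hpos : ∃ ε : ℝ, 0 < ε ∧ ∀ r, 0 < r → r < ε → 0 < φ r) :
    (∀ r s, 0 < r → r ≤ s → φ r / r ^ j ≤ φ s / s ^ j) ∧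
    (∀ k : ℝ, k < j → ¬ ∃ C : ℝ, ∀ r, 1 ≤ r → |φ r| ≤ C * (1 + r) ^ k) := by
  obtain ⟨p, rfl⟩ : ∃ p, n = p + 1 := ⟨n - 1, by omega⟩
  obtain ⟨m, rfl⟩ : ∃ m, j = m + 1 := ⟨j - 1, by omega⟩
  -- consequences of concavity
  have hfle : ∀ r, 0 < r → f r ≤ r := by
    intro r hr
    have h := hconc.slope_le_of_hasDerivWithinAt (x := 0) (y := r) (mem_Ici.mpr le_rfl)
      (mem_Ici.mpr hr.le) hr hf0'
    rw [slope_def_field, hf0, sub_zero, sub_zero, div_le_one hr] at h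
    exact h
  have hfd : ∀ r, 0 < r → r * f' r ≤ f r := by
    intro r hr
    have h := hconc.le_slope_of_hasDerivAt (x := 0) (y := r) (mem_Ici.mpr le_rfl)
      (mem_Ici.mpr hr.le) hr (hf r hr)
    rw [slope_def_field, hf0, sub_zero, sub_zero, le_div_iff₀ hr] at h
    linarith
  have hode' : ∀ r, 0 < r →
      φ'' r + (p : ℝ) * (f' r / f r) * φ' r = ((m : ℝ) + 1) * ((m : ℝ) + p) * φ r / (f r) ^ 2 := by
    intro r hr
    have h := hode r hr
    push_cast at h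
    have e1 : (p : ℝ) + 1 - 1 = p := by ring
    have e2 : (m : ℝ) + 1 + (p + 1) - 2 = m + p := by ring
    rw [e1, e2] at h
    exact h
  have hreg' : ∃ C ε : ℝ, 0 < ε ∧ ∀ r, 0 < r → r < ε →
      |φ r| ≤ C * r ^ (m + 1) ∧ |φ' r| ≤ C * r ^ m := by
    simpa using hreg
  have hmono := ratio_mono_all hf hfpos hfle hfd hφ hφ' hode' hreg' hpos
  refine ⟨hmono, ?_⟩
  rintro k hk ⟨C, hC⟩
  have hφ1 : 0 < φ 1 := pos_everywhere hf hfpos hfle hfd hφ hφ' hode' hreg' hpos 1 one_pos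
  set k0 := max k 0 with hk0
  have hk0j : k0 < ((m + 1 : ℕ) : ℝ) := by
    apply max_lt hk
    positivity
  have hy : 0 < ((m + 1 : ℕ) : ℝ) - k0 := by linarith
  set B := (|C| * (2 : ℝ) ^ k0 + 1) / φ 1 with hB
  have hev : ∀ᶠ r : ℝ in atTop, B < r ^ (((m + 1 : ℕ) : ℝ) - k0) :=
    (tendsto_rpow_atTop hy).eventually_gt_atTop B
  obtain ⟨r, hrB, hr1⟩ := (hev.and (eventually_ge_atTop (1 : ℝ))).exists
  have hr0 : 0 < r := by linarith
  -- lower bound
  have hlow : φ 1 * r ^ (m + 1) ≤ φ r := by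
    have h := hmono 1 r one_pos hr1
    rw [one_pow, div_one, le_div_iff₀ (pow_pos hr0 _)] at h
    exact h
  -- upper bound
  have hup : |φ r| ≤ |C| * ((2 : ℝ) ^ k0 * r ^ k0) := by
    have h1 := hC r hr1
    have h2 : (1 + r) ^ k ≤ (1 + r) ^ k0 :=
      Real.rpow_le_rpow_of_exponent_le (by linarith) (le_max_left _ _)
    have h3 : (1 + r) ^ k0 ≤ (2 * r) ^ k0 :=
      Real.rpow_le_rpow (by linarith) (by linarith) (le_max_right _ _)
    have h4 : (2 * r) ^ k0 = (2 : ℝ) ^ k0 * r ^ k0 := Real.mul_rpow (by norm_num) hr0.le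
    have h5 : 0 ≤ (1 + r) ^ k := Real.rpow_nonneg (by linarith) _
    calc |φ r| ≤ C * (1 + r) ^ k := h1
      _ ≤ |C| * (1 + r) ^ k := mul_le_mul_of_nonneg_right (le_abs_self C) h5
      _ ≤ |C| * ((2 : ℝ) ^ k0 * r ^ k0) := by
        apply mul_le_mul_of_nonneg_left _ (abs_nonneg C)
        rw [← h4]
        exact h2.trans h3
  have hsplit : r ^ (m + 1) = r ^ (((m + 1 : ℕ) : ℝ) - k0) * r ^ k0 := by
    rw [← Real.rpow_add hr0, sub_add_cancel, Real.rpow_natCast]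
  have hrk : 0 < r ^ k0 := Real.rpow_pos_of_pos hr0 _
  have h6 : φ 1 * r ^ (((m + 1 : ℕ) : ℝ) - k0) * r ^ k0 ≤ |C| * (2 : ℝ) ^ k0 * r ^ k0 := by
    calc φ 1 * r ^ (((m + 1 : ℕ) : ℝ) - k0) * r ^ k0 = φ 1 * r ^ (m + 1) := by
          rw [hsplit]; ring
      _ ≤ φ r := hlow
      _ ≤ |φ r| := le_abs_self _
      _ ≤ |C| * ((2 : ℝ) ^ k0 * r ^ k0) := hup
      _ = |C| * (2 : ℝ) ^ k0 * r ^ k0 := by ring
  have h7 : φ 1 * r ^ (((m + 1 : ℕ) : ℝ) - k0) ≤ |C| * (2 : ℝ) ^ k0 :=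
    le_of_mul_le_mul_right h6 hrk
  have h8 : B * φ 1 < r ^ (((m + 1 : ℕ) : ℝ) - k0) * φ 1 := mul_lt_mul_of_pos_right hrB hφ1
  have h9 : B * φ 1 = |C| * (2 : ℝ) ^ k0 + 1 := by
    rw [hB]; field_simp
  linarith

end Vale.Agent.Results.P225.RadialModes
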