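import Mathlib
import Vale.Agent.Results.P225.RadialModes

/-!
# P225 (Yau's dimension comparison): the equality case for rotationally symmetric manifolds

Setting as in `RadialModes`: the rotationally symmetric manifold
`(ℝ^n, dr^2 + f(r)^2 g_{S^{n-1}})` with `f` concave (nonnegative Ricci curvature), and a radial
mode `φ` of angular degree `j ≥ 1`, regular and positive near the origin.  `RadialModes` shows that
`φ(r) / r^j` is nondecreasing.  Here we prove the rigidity statement: if the mode has polynomial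
growth of order `j` (that is, it lies in `H_j`), then `f(r) = r` for every `r`, so the metric is
the flat one.  Equivalently, on a non-flat manifold of this class every mode of degree `j` grows
strictly faster than `r^j` (at least like `r^j log r`).
-/

namespace Vale.Agent.Results.P225.RadialRigidity

open Set Filter Topology
open Vale.Agent.Results.P225.RadialModes

/-- Key identity for the derivative of the Euclidean Wronskian `r^p r^m (r φ' - (m+1) φ)`. -/
lemma Zder_identity (p m : ℕ) (f f' φ φ' φ'' : ℝ → ℝ) (r : ℝ) (hfpos : 0 < f r)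
    (hode : φ'' r + p * (f' r / f r) * φ' r = (m + 1) * (m + p) * φ r / (f r) ^ 2) :
    r * f r ^ 2 * Wder p m id (fun _ => 1) φ φ' φ'' r =
      r ^ p * r ^ m * ((p : ℝ) * (r * φ' r) * f r * (f r - r * f' r)
        + ((m : ℝ) + 1) * ((m : ℝ) + p) * φ r * (r ^ 2 - f r ^ 2)) := by
  have hne : f r ≠ 0 := hfpos.ne'
  have hE : f r ^ 2 * φ'' r = (m + 1) * (m + p) * φ r - p * f r * f' r * φ' r := by
    field_simp at hode
    linarith
  have ha := pow_pred_mul r p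
  have hb := pow_pred_mul r m
  unfold Wder
  simp only [id]
  linear_combination (f r ^ 2 * r ^ m * (r * φ' r - (m + 1) * φ r)) * ha
    + (f r ^ 2 * r ^ p * (r * φ' r - (m + 1) * φ r)) * hb
    + (r ^ 2 * r ^ p * r ^ m) * hE

/-- Lower bound for the derivative of the Euclidean Wronskian where `f ≤ θ r`, `θ < 1`. -/
lemma Zder_lower (p m : ℕ) (f f' φ φ' φ'' : ℝ → ℝ) (r θ a : ℝ) (hr : 0 < r)
    (hfpos : 0 < f r) (hfle : f r ≤ r) (hf' : r * f' r ≤ f r)
    (hode : φ'' r + p * (f' r / f r) * φ' r = (m + 1) * (m + p) * φ r / (f r) ^ 2)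
    (hθ : f r ≤ θ * r) (hθ0 : 0 ≤ θ) (hθ1 : θ < 1) (ha : 0 ≤ a)
    (hφa : a * r ^ (m + 1) ≤ φ r) (hφ'nn : 0 ≤ φ' r) :
    ((m : ℝ) + 1) * ((m : ℝ) + p) * a * (1 - θ ^ 2) * r ^ (p + 2 * m)
      ≤ Wder p m id (fun _ => 1) φ φ' φ'' r := by
  set D := Wder p m id (fun _ => 1) φ φ' φ'' r with hD
  have key := Zder_identity p m f f' φ φ' φ'' r hfpos hode
  rw [← hD] at key
  have hμ : (0 : ℝ) ≤ ((m : ℝ) + 1) * ((m : ℝ) + p) := by positivity
  have hT1 : 0 ≤ (p : ℝ) * (r * φ' r) * f r * (f r - r * f' r) :=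
    mul_nonneg (mul_nonneg (mul_nonneg (Nat.cast_nonneg p) (mul_nonneg hr.le hφ'nn)) hfpos.le)
      (by linarith)
  have hf2 : f r ^ 2 ≤ θ ^ 2 * r ^ 2 := by
    have h : f r ^ 2 ≤ (θ * r) ^ 2 := pow_le_pow_left₀ hfpos.le hθ 2
    rw [mul_pow] at h
    exact h
  have hθ2 : 0 ≤ 1 - θ ^ 2 := by nlinarith
  have hgap : (1 - θ ^ 2) * r ^ 2 ≤ r ^ 2 - f r ^ 2 := by linarith
  have har : 0 ≤ a * r ^ (m + 1) := mul_nonneg ha (pow_nonneg hr.le _)
  have hφnn : 0 ≤ φ r := le_trans har hφa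
  have h1 : ((m : ℝ) + 1) * ((m : ℝ) + p) * (a * r ^ (m + 1)) * ((1 - θ ^ 2) * r ^ 2)
      ≤ ((m : ℝ) + 1) * ((m : ℝ) + p) * φ r * (r ^ 2 - f r ^ 2) :=
    mul_le_mul (mul_le_mul_of_nonneg_left hφa hμ) hgap (mul_nonneg hθ2 (by positivity))
      (mul_nonneg hμ hφnn)
  have hrm : 0 ≤ r ^ p * r ^ m := by positivity
  have h2 : r ^ p * r ^ m
      * (((m : ℝ) + 1) * ((m : ℝ) + p) * (a * r ^ (m + 1)) * ((1 - θ ^ 2) * r ^ 2))
      ≤ r * f r ^ 2 * D := by
    rw [key]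
    apply mul_le_mul_of_nonneg_left _ hrm
    linarith
  by_contra hcon
  rw [not_le] at hcon
  have hrf : 0 < r * f r ^ 2 := by positivity
  have hc : 0 ≤ ((m : ℝ) + 1) * ((m : ℝ) + p) * a * (1 - θ ^ 2) * r ^ (p + 2 * m) :=
    mul_nonneg (mul_nonneg (mul_nonneg hμ ha) hθ2) (pow_nonneg hr.le _)
  have h3 : r * f r ^ 2 * D
      < r * f r ^ 2 * (((m : ℝ) + 1) * ((m : ℝ) + p) * a * (1 - θ ^ 2) * r ^ (p + 2 * m)) :=
    mul_lt_mul_of_pos_left hcon hrf
  have hfr2 : f r ^ 2 ≤ r ^ 2 := pow_le_pow_left₀ hfpos.le hfle 2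
  have h4 : r * f r ^ 2 * (((m : ℝ) + 1) * ((m : ℝ) + p) * a * (1 - θ ^ 2) * r ^ (p + 2 * m))
      ≤ r * r ^ 2 * (((m : ℝ) + 1) * ((m : ℝ) + p) * a * (1 - θ ^ 2) * r ^ (p + 2 * m)) :=
    mul_le_mul_of_nonneg_right (mul_le_mul_of_nonneg_left hfr2 hr.le) hc
  have h5 : r * r ^ 2 * (((m : ℝ) + 1) * ((m : ℝ) + p) * a * (1 - θ ^ 2) * r ^ (p + 2 * m))
      = r ^ p * r ^ m
        * (((m : ℝ) + 1) * ((m : ℝ) + p) * (a * r ^ (m + 1)) * ((1 - θ ^ 2) * r ^ 2)) := by
    ring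
  linarith

section core

variable {p m : ℕ} {f f' φ φ' φ'' : ℝ → ℝ}
  (hf : ∀ r, 0 < r → HasDerivAt f (f' r) r)
  (hfpos : ∀ r, 0 < r → 0 < f r)
  (hfle : ∀ r, 0 < r → f r ≤ r)
  (hf' : ∀ r, 0 < r → r * f' r ≤ f r)
  (hφ : ∀ r, 0 < r → HasDerivAt φ (φ' r) r)
  (hφ' : ∀ r, 0 < r → HasDerivAt φ' (φ'' r) r)
  (hode : ∀ r, 0 < r →
    φ'' r + p * (f' r / f r) * φ' r = (m + 1) * (m + p) * φ r / (f r) ^ 2)
  (hreg : ∃ C ε : ℝ, 0 < ε ∧ ∀ r, 0 < r → r < ε →
    |φ r| ≤ C * r ^ (m + 1) ∧ |φ' r| ≤ C * r ^ m)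

include hf hfpos hfle hf' hφ hφ' hode hreg

/-- Core rigidity statement. -/
lemma rigid_core (hp : 1 ≤ p)
    (hquot : ∀ r s, 0 < r → r ≤ s → f s * r ≤ f r * s)
    (hpos : ∃ ε : ℝ, 0 < ε ∧ ∀ r, 0 < r → r < ε → 0 < φ r)
    (hgrow : ∃ C : ℝ, ∀ r, 1 ≤ r → |φ r| ≤ C * (1 + r) ^ (m + 1)) :
    ∀ r, 0 < r → f r = r := by
  intro r1 hr1
  by_contra hne
  have hlt : f r1 < r1 := lt_of_le_of_ne (hfle r1 hr1) hne
  have hφpos := pos_everywhere hf hfpos hfle hf' hφ hφ' hode hreg hpos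
  have hmono := ratio_mono_all hf hfpos hfle hf' hφ hφ' hode hreg hpos
  -- the Wronskian inequality `r φ' ≥ (m+1) φ`
  have hV : ∀ r, 0 < r → 0 ≤ r * φ' r - (m + 1) * φ r := by
    intro r hr
    have h1 := W_nonneg hf hfpos hfle hf' hφ hφ' hode hreg (r + 1)
      (fun s hs _ => (hφpos s hs).le) r hr (by linarith)
    unfold Wfun at h1
    have h2 : 0 < f r ^ p * r ^ m := mul_pos (pow_pos (hfpos r hr) p) (pow_pos hr m)
    exact nonneg_of_mul_nonneg_right h1 h2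
  have hφ'nn : ∀ r, 0 < r → 0 ≤ φ' r := by
    intro r hr
    have h1 := hV r hr
    have h2 := hφpos r hr
    have h3 : 0 ≤ ((m : ℝ) + 1) * φ r := by positivity
    have h4 : 0 ≤ r * φ' r := by linarith
    exact nonneg_of_mul_nonneg_right h4 hr
  set θ := f r1 / r1 with hθ
  have hθ0 : 0 ≤ θ := (div_pos (hfpos r1 hr1) hr1).le
  have hθ1 : θ < 1 := by
    rw [hθ, div_lt_one hr1]
    exact hlt
  have hfθ : ∀ r, r1 ≤ r → f r ≤ θ * r := by
    intro r hr
    have h := hquot r1 r hr1 hr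
    rw [hθ, div_mul_eq_mul_div, le_div_iff₀ hr1]
    exact h
  set a := φ r1 / r1 ^ (m + 1) with ha
  have ha0 : 0 < a := div_pos (hφpos r1 hr1) (pow_pos hr1 _)
  have hφa : ∀ r, r1 ≤ r → a * r ^ (m + 1) ≤ φ r := by
    intro r hr
    have hr0 : 0 < r := lt_of_lt_of_le hr1 hr
    have h := hmono r1 r hr1 hr
    rw [le_div_iff₀ (pow_pos hr0 _)] at h
    exact h
  set c0 := ((m : ℝ) + 1) * ((m : ℝ) + p) * a * (1 - θ ^ 2) with hc0
  have hc0pos : 0 < c0 := by
    have h1 : (0 : ℝ) < (m : ℝ) + p := by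
      have h1a : (1 : ℝ) ≤ p := by exact_mod_cast hp
      have h1b : (0 : ℝ) ≤ m := Nat.cast_nonneg m
      linarith
    have h2 : 0 < 1 - θ ^ 2 := by nlinarith
    have h3 : (0 : ℝ) < (m : ℝ) + 1 := by positivity
    exact mul_pos (mul_pos (mul_pos h3 h1) ha0) h2
  set N := p + 2 * m + 1 with hN
  have hNpos : (0 : ℝ) < (N : ℝ) := by
    have : 0 < N := by omega
    exact_mod_cast this
  -- the Euclidean Wronskian
  set Z := Wfun p m id φ φ' with hZ
  have hZder : ∀ r, 0 < r → HasDerivAt Z (Wder p m id (fun _ => 1) φ φ' φ'' r) r := by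
    intro r hr
    exact hasDerivAt_W p m id (fun _ => 1) φ φ' φ'' r (hasDerivAt_id r) (hφ r hr) (hφ' r hr)
  have hDlow : ∀ r, r1 ≤ r → c0 * r ^ (p + 2 * m) ≤ Wder p m id (fun _ => 1) φ φ' φ'' r := by
    intro r hr
    have hr0 : 0 < r := lt_of_lt_of_le hr1 hr
    exact Zder_lower p m f f' φ φ' φ'' r θ a hr0 (hfpos r hr0) (hfle r hr0) (hf' r hr0)
      (hode r hr0) (hfθ r hr) hθ0 hθ1 ha0.le (hφa r hr) (hφ'nn r hr0)
  have hGder : ∀ r, 0 < r → HasDerivAt (fun r => Z r - c0 / N * r ^ N)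
      (Wder p m id (fun _ => 1) φ φ' φ'' r - c0 / N * ((N : ℝ) * r ^ (N - 1))) r := by
    intro r hr
    exact (hZder r hr).sub ((hasDerivAt_pow N r).const_mul _)
  have hGmono : MonotoneOn (fun r => Z r - c0 / N * r ^ N) (Ici r1) := by
    apply monotoneOn_of_deriv_nonneg (convex_Ici r1)
    · intro r hr
      exact (hGder r (lt_of_lt_of_le hr1 hr)).continuousAt.continuousWithinAt
    · intro r hr
      rw [interior_Ici] at hr
      exact (hGder r (hr1.trans hr)).differentiableAt.differentiableWithinAt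
    · intro r hr
      rw [interior_Ici] at hr
      have hr0 : 0 < r := hr1.trans hr
      rw [(hGder r hr0).deriv]
      have h1 := hDlow r hr.le
      have h2 : c0 / N * ((N : ℝ) * r ^ (N - 1)) = c0 * r ^ (p + 2 * m) := by
        have h3 : N - 1 = p + 2 * m := by omega
        rw [h3]
        field_simp
      linarith
  have hZ1 : 0 ≤ Z r1 := by
    rw [hZ]
    unfold Wfun
    simp only [id]
    exact mul_nonneg (mul_nonneg (pow_nonneg hr1.le p) (pow_nonneg hr1.le m)) (hV r1 hr1)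
  have hZlow : ∀ r, r1 ≤ r → c0 / N * (r ^ N - r1 ^ N) ≤ Z r := by
    intro r hr
    have h := hGmono (mem_Ici.mpr le_rfl) (mem_Ici.mpr hr) hr
    simp only at h
    linarith
  -- the ratio `φ / r^(m+1)` and its derivative
  have hψder : ∀ r, 0 < r → HasDerivAt (fun r => φ r / r ^ (m + 1))
      ((φ' r * r ^ (m + 1) - φ r * (((m + 1 : ℕ) : ℝ) * r ^ (m + 1 - 1))) / (r ^ (m + 1)) ^ 2)
      r := by
    intro r hr
    exact (hφ r hr).fun_div (hasDerivAt_pow (m + 1) r) (pow_ne_zero _ hr.ne')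
  set c2 := c0 / (2 * N) with hc2
  have hc2pos : 0 < c2 := by positivity
  have hψlow : ∀ r, 2 * r1 ≤ r → c2 / r ≤
      (φ' r * r ^ (m + 1) - φ r * (((m + 1 : ℕ) : ℝ) * r ^ (m + 1 - 1))) / (r ^ (m + 1)) ^ 2 := by
    intro r hr
    have hr0 : 0 < r := by linarith
    have hrr1 : r1 ≤ r := by linarith
    have hZr := hZlow r hrr1
    have hpow : 2 * r1 ^ N ≤ r ^ N := by
      have h1 : (2 * r1) ^ N ≤ r ^ N := pow_le_pow_left₀ (by linarith) hr N
      rw [mul_pow] at h1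
      have h2 : (2 : ℝ) ≤ 2 ^ N := le_self_pow₀ (by norm_num) (by omega)
      have h3 : 2 * r1 ^ N ≤ 2 ^ N * r1 ^ N :=
        mul_le_mul_of_nonneg_right h2 (pow_nonneg hr1.le N)
      linarith
    have hZr2 : c2 * r ^ N ≤ Z r := by
      have h1 : c0 / N * (r ^ N / 2) ≤ c0 / N * (r ^ N - r1 ^ N) := by
        apply mul_le_mul_of_nonneg_left _ (by positivity)
        linarith
      have h2 : c0 / N * (r ^ N / 2) = c2 * r ^ N := by
        rw [hc2]
        field_simp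
      linarith
    have hVr : c2 * r ^ (m + 1) ≤ r * φ' r - (m + 1) * φ r := by
      have h1 : Z r = r ^ p * r ^ m * (r * φ' r - (m + 1) * φ r) := by
        rw [hZ]
        unfold Wfun
        simp only [id]
      have h2 : r ^ p * r ^ m * (c2 * r ^ (m + 1)) = c2 * r ^ N := by
        rw [hN]
        ring
      have h3 : 0 < r ^ p * r ^ m := by positivity
      have h4 : r ^ p * r ^ m * (c2 * r ^ (m + 1))
          ≤ r ^ p * r ^ m * (r * φ' r - (m + 1) * φ r) := by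
        rw [h2, ← h1]
        exact hZr2
      exact le_of_mul_le_mul_left h4 h3
    have h5 : φ' r * r ^ (m + 1) - φ r * (((m + 1 : ℕ) : ℝ) * r ^ (m + 1 - 1))
        = r ^ m * (r * φ' r - (m + 1) * φ r) := by
      simp only [Nat.add_sub_cancel, Nat.cast_add, Nat.cast_one]
      ring
    rw [h5, div_le_div_iff₀ hr0 (by positivity)]
    have h6 : r ^ m * (c2 * r ^ (m + 1)) ≤ r ^ m * (r * φ' r - (m + 1) * φ r) :=
      mul_le_mul_of_nonneg_left hVr (pow_nonneg hr0.le m)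
    have h7 : c2 * (r ^ (m + 1)) ^ 2 = r ^ m * (c2 * r ^ (m + 1)) * r := by ring
    rw [h7]
    exact mul_le_mul_of_nonneg_right h6 hr0.le
  have hHder : ∀ r, 0 < r → HasDerivAt (fun r => φ r / r ^ (m + 1) - c2 * Real.log r)
      ((φ' r * r ^ (m + 1) - φ r * (((m + 1 : ℕ) : ℝ) * r ^ (m + 1 - 1))) / (r ^ (m + 1)) ^ 2
        - c2 * r⁻¹) r := by
    intro r hr
    exact (hψder r hr).sub ((Real.hasDerivAt_log hr.ne').const_mul c2)
  have hHmono : MonotoneOn (fun r => φ r / r ^ (m + 1) - c2 * Real.log r) (Ici (2 * r1)) := by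
    apply monotoneOn_of_deriv_nonneg (convex_Ici (2 * r1))
    · intro r hr
      have hr0 : 0 < r := lt_of_lt_of_le (by linarith) (mem_Ici.mp hr)
      exact (hHder r hr0).continuousAt.continuousWithinAt
    · intro r hr
      rw [interior_Ici] at hr
      have hr0 : 0 < r := lt_trans (by linarith) (mem_Ioi.mp hr)
      exact (hHder r hr0).differentiableAt.differentiableWithinAt
    · intro r hr
      rw [interior_Ici] at hr
      have hr0 : 0 < r := lt_trans (by linarith) (mem_Ioi.mp hr)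
      rw [(hHder r hr0).deriv]
      have h1 := hψlow r (mem_Ioi.mp hr).le
      rw [div_eq_mul_inv] at h1
      linarith
  -- conclusion
  obtain ⟨C, hC⟩ := hgrow
  set B := (|C| * 2 ^ (m + 1)) / c2 + Real.log (2 * r1) + 1 with hB
  obtain ⟨r, hrB, hr1', hr2⟩ : ∃ r, B < Real.log r ∧ 1 ≤ r ∧ 2 * r1 ≤ r :=
    ((Real.tendsto_log_atTop.eventually_gt_atTop B).and
      ((eventually_ge_atTop (1 : ℝ)).and (eventually_ge_atTop (2 * r1)))).exists
  have hr0 : 0 < r := by linarith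
  have hH := hHmono (mem_Ici.mpr le_rfl) (mem_Ici.mpr hr2) hr2
  simp only at hH
  have hψ2 : 0 < φ (2 * r1) / (2 * r1) ^ (m + 1) :=
    div_pos (hφpos _ (by linarith)) (pow_pos (by linarith) _)
  have hup : φ r / r ^ (m + 1) ≤ |C| * 2 ^ (m + 1) := by
    rw [div_le_iff₀ (pow_pos hr0 _)]
    calc φ r ≤ |φ r| := le_abs_self _
      _ ≤ C * (1 + r) ^ (m + 1) := hC r hr1'
      _ ≤ |C| * (1 + r) ^ (m + 1) :=
          mul_le_mul_of_nonneg_right (le_abs_self C) (by positivity)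
      _ ≤ |C| * (2 * r) ^ (m + 1) := by
          apply mul_le_mul_of_nonneg_left _ (abs_nonneg C)
          exact pow_le_pow_left₀ (by linarith) (by linarith) _
      _ = |C| * 2 ^ (m + 1) * r ^ (m + 1) := by
          rw [mul_pow]
          ring
  have h1 : c2 * (Real.log r - Real.log (2 * r1)) ≤ |C| * 2 ^ (m + 1) := by linarith
  have h2 : Real.log r - Real.log (2 * r1) ≤ |C| * 2 ^ (m + 1) / c2 := by
    rw [le_div_iff₀ hc2pos]
    linarith
  linarith

end core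

/-- **Result (equality case).**  Let `n ≥ 2`, `j ≥ 1`, and let `f` be concave on `[0, ∞)` with
`f 0 = 0`, right derivative `1` at `0` and `f > 0` on `(0, ∞)` (the warping function of a
rotationally symmetric metric `dr^2 + f(r)^2 g_{S^{n-1}}` on `ℝ^n` with nonnegative Ricci
curvature).  Let `φ` solve the radial equation of the angular modes of degree `j`,
`φ'' + (n-1) (f'/f) φ' = j (j+n-2) φ / f^2` on `(0, ∞)`, be regular at the origin
(`φ = O(r^j)`, `φ' = O(r^(j-1))`) and positive near the origin.  If `φ` has polynomial growth of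
order `j`, that is `|φ(r)| ≤ C (1+r)^j` for `r ≥ 1`, then `f(r) = r` for all `r ≥ 0`: the metric
is the Euclidean one. -/
theorem result (n j : ℕ) (hn : 2 ≤ n) (hj : 1 ≤ j) (f f' φ φ' φ'' : ℝ → ℝ)
    (hf0 : f 0 = 0) (hf0' : HasDerivWithinAt f 1 (Ici 0) 0)
    (hfpos : ∀ r, 0 < r → 0 < f r) (hconc : ConcaveOn ℝ (Ici 0) f)
    (hf : ∀ r, 0 < r → HasDerivAt f (f' r) r)
    (hφ : ∀ r, 0 < r → HasDerivAt φ (φ' r) r)
    (hφ' : ∀ r, 0 < r → HasDerivAt φ' (φ'' r) r)
    (hode : ∀ r, 0 < r →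
      φ'' r + ((n : ℝ) - 1) * (f' r / f r) * φ' r
        = (j : ℝ) * ((j : ℝ) + n - 2) * φ r / (f r) ^ 2)
    (hreg : ∃ C ε : ℝ, 0 < ε ∧ ∀ r, 0 < r → r < ε →
      |φ r| ≤ C * r ^ j ∧ |φ' r| ≤ C * r ^ (j - 1))
    (hpos : ∃ ε : ℝ, 0 < ε ∧ ∀ r, 0 < r → r < ε → 0 < φ r)
    (hgrow : ∃ C : ℝ, ∀ r, 1 ≤ r → |φ r| ≤ C * (1 + r) ^ j) :
    ∀ r, 0 ≤ r → f r = r := by
  obtain ⟨p, rfl⟩ : ∃ p, n = p + 1 := ⟨n - 1, by omega⟩
  obtain ⟨m, rfl⟩ : ∃ m, j = m + 1 := ⟨j - 1, by omega⟩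
  have hp : 1 ≤ p := by omega
  -- consequences of concavity
  have hfle : ∀ r, 0 < r → f r ≤ r := by
    intro r hr
    have h := hconc.slope_le_of_hasDerivWithinAt (x := 0) (y := r) (mem_Ici.mpr le_rfl)
      (mem_Ici.mpr hr.le) hr hf0'
    rw [slope_def_field, hf0, sub_zero, sub_zero, div_le_one hr] at h
    exact h
  have hfd : ∀ r, 0 < r → r * f' r ≤ f r := by
    intro r hr
    have h := hconc.le_slope_of_hasDerivAt (x := 0) (y := r) (mem_Ici.mpr le_rfl)
      (mem_Ici.mpr hr.le) hr (hf r hr)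
    rw [slope_def_field, hf0, sub_zero, sub_zero, le_div_iff₀ hr] at h
    linarith
  have hquot : ∀ r s, 0 < r → r ≤ s → f s * r ≤ f r * s := by
    intro r s hr hrs
    have hs : 0 < s := lt_of_lt_of_le hr hrs
    have h := hconc.2 (mem_Ici.mpr (le_refl (0 : ℝ))) (mem_Ici.mpr hs.le)
      (show (0 : ℝ) ≤ 1 - r / s by
        rw [sub_nonneg, div_le_one hs]
        exact hrs)
      (show (0 : ℝ) ≤ r / s by positivity) (by ring)
    simp only [smul_eq_mul, hf0, mul_zero, zero_add] at h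
    have h2 : r / s * s = r := by field_simp
    rw [h2] at h
    have h3 : r / s * f s * s ≤ f r * s := mul_le_mul_of_nonneg_right h hs.le
    have h4 : r / s * f s * s = f s * r := by field_simp
    linarith
  have hode' : ∀ r, 0 < r →
      φ'' r + (p : ℝ) * (f' r / f r) * φ' r = ((m : ℝ) + 1) * ((m : ℝ) + p) * φ r / (f r) ^ 2 := by
    intro r hr
    have h := hode r hr
    push_cast at h
    have e1 : (p : ℝ) + 1 - 1 = p := by ring
    have e2 : (m : ℝ) + 1 + (p + 1) - 2 = m + p := by ring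
    rw [e1, e2] at h
    exact h
  have hreg' : ∃ C ε : ℝ, 0 < ε ∧ ∀ r, 0 < r → r < ε →
      |φ r| ≤ C * r ^ (m + 1) ∧ |φ' r| ≤ C * r ^ m := by
    simpa using hreg
  have hcore := rigid_core hf hfpos hfle hfd hφ hφ' hode' hreg' hp hquot hpos hgrow
  intro r hr
  rcases hr.eq_or_lt with h0 | h0
  · rw [← h0, hf0]
  · exact hcore r h0

end Vale.Agent.Results.P225.RadialRigidity
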