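import Mathlib
import Vale.Agent.Results.P225.RadialModes
import Vale.Agent.Results.P225.RadialRigidity

/-!
P225 (Yau's dimension comparison for harmonic functions of polynomial growth), direct form of
`P225.RadialModes` and `P225.RadialRigidity` in one statement: the growth criterion for a
radial mode on a rotationally symmetric manifold of nonnegative Ricci curvature.

Let `n ≥ 2`, `j ≥ 1`, let `f` be concave on `[0,∞)` with `f 0 = 0`, right derivative `1` at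
`0`, positive and differentiable on `(0,∞)` (the warping function of the metric
`dr² + f(r)² g_{S^(n-1)}`), and let `φ` be a solution on `(0,∞)` of the radial equation
`φ'' + (n-1) (f'/f) φ' = j (j+n-2) φ / f²` of a mode of degree `j`, with `φ = O(r^j)`,
`φ' = O(r^(j-1))` at `0` and `φ > 0` near `0`.  If `|φ(r)| ≤ C (1+r)^k` for all `r ≥ 1`,
with a real exponent `k`, then `j ≤ k`; and if `k = j`, then `f(r) = r` for all `r ≥ 0`.
-/

namespace Vale.Agent.Results.P225.GrowthCriterion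

open Set

theorem result (n j : ℕ) (hn : 2 ≤ n) (hj : 1 ≤ j) (f f' φ φ' φ'' : ℝ → ℝ)
    (hf0 : f 0 = 0) (hf0' : HasDerivWithinAt f 1 (Ici 0) 0)
    (hfpos : ∀ r, 0 < r → 0 < f r) (hconc : ConcaveOn ℝ (Ici 0) f)
    (hf : ∀ r, 0 < r → HasDerivAt f (f' r) r)
    (hφ : ∀ r, 0 < r → HasDerivAt φ (φ' r) r)
    (hφ' : ∀ r, 0 < r → HasDerivAt φ' (φ'' r) r)
    (hode : ∀ r, 0 < r →
      φ'' r + ((n : ℝ) - 1) * (f' r / f r) * φ' r
        = (j : ℝ) * ((j : ℝ) + n - 2) * φ r / (f r) ^ 2)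
    (hreg : ∃ C ε : ℝ, 0 < ε ∧ ∀ r, 0 < r → r < ε →
      |φ r| ≤ C * r ^ j ∧ |φ' r| ≤ C * r ^ (j - 1))
    (hpos : ∃ ε : ℝ, 0 < ε ∧ ∀ r, 0 < r → r < ε → 0 < φ r)
    (k : ℝ) (hgrow : ∃ C : ℝ, ∀ r, 1 ≤ r → |φ r| ≤ C * (1 + r) ^ k) :
    (j : ℝ) ≤ k ∧ (k = (j : ℝ) → ∀ r, 0 ≤ r → f r = r) := by
  refine ⟨?_, ?_⟩
  · by_contra hlt
    exact (Vale.Agent.Results.P225.RadialModes.result n j hn hj f f' φ φ' φ'' hf0 hf0' hfpos
      hconc hf hφ hφ' hode hreg hpos).2 k (not_le.mp hlt) hgrow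
  · intro hk
    obtain ⟨C, hC⟩ := hgrow
    refine Vale.Agent.Results.P225.RadialRigidity.result n j hn hj f f' φ φ' φ'' hf0 hf0' hfpos
      hconc hf hφ hφ' hode hreg hpos ⟨C, fun r hr => ?_⟩
    have := hC r hr
    rwa [hk, Real.rpow_natCast] at this

end Vale.Agent.Results.P225.GrowthCriterion
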