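import Mathlib
import Vale.Agent.Results.P225.GrowthCriterion
import Vale.Agent.Helper6.P225Sign

/-!
P225 (Yau's dimension comparison for harmonic functions of polynomial growth): the growth
criterion of `P225.GrowthCriterion` for EVERY radial mode that is not identically zero, with
no sign normalisation.

Let `n ≥ 2`, `j ≥ 1`, let `f` be concave on `[0,∞)` with `f 0 = 0`, right derivative `1` at
`0`, positive and differentiable on `(0,∞)` (the warping function of the metric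
`dr² + f(r)² g_{S^(n-1)}`), and let `φ` be a solution on `(0,∞)` of the radial equation
`φ'' + (n-1) (f'/f) φ' = j (j+n-2) φ / f²` of a mode of degree `j`, with `φ = O(r^j)`,
`φ' = O(r^(j-1))` at `0`, and `φ r ≠ 0` for at least one `r > 0`.  If `|φ(r)| ≤ C (1+r)^k`
for all `r ≥ 1`, with a real exponent `k`, then `j ≤ k`; and if `k = j`, then `f(r) = r` for
all `r ≥ 0`.

New compared with `P225.GrowthCriterion`, `P225.RadialModes`, `P225.RadialRigidity`: the
hypothesis that `φ` is positive near `0` is replaced by `φ ≠ 0` somewhere.  The proof shows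
that such a `φ` has no zero on `(0,∞)`: the flux `φ f^(n-1) φ'` is nondecreasing and tends
to `0` at `0`, so a zero at `a` forces `φ = 0` on `(0,a)`, and then `φ = 0` everywhere by
Gronwall's inequality.
-/

namespace Vale.Agent.Results.P225.NonzeroModes

open Set

theorem result (n j : ℕ) (hn : 2 ≤ n) (hj : 1 ≤ j) (f f' φ φ' φ'' : ℝ → ℝ)
    (hf0 : f 0 = 0) (hf0' : HasDerivWithinAt f 1 (Ici 0) 0)
    (hfpos : ∀ r, 0 < r → 0 < f r) (hconc : ConcaveOn ℝ (Ici 0) f)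
    (hf : ∀ r, 0 < r → HasDerivAt f (f' r) r)
    (hφ : ∀ r, 0 < r → HasDerivAt φ (φ' r) r)
    (hφ' : ∀ r, 0 < r → HasDerivAt φ' (φ'' r) r)
    (hode : ∀ r, 0 < r →
      φ'' r + ((n : ℝ) - 1) * (f' r / f r) * φ' r
        = (j : ℝ) * ((j : ℝ) + n - 2) * φ r / (f r) ^ 2)
    (hreg : ∃ C ε : ℝ, 0 < ε ∧ ∀ r, 0 < r → r < ε →
      |φ r| ≤ C * r ^ j ∧ |φ' r| ≤ C * r ^ (j - 1))
    (hne : ∃ r : ℝ, 0 < r ∧ φ r ≠ 0)
    (k : ℝ) (hgrow : ∃ C : ℝ, ∀ r, 1 ≤ r → |φ r| ≤ C * (1 + r) ^ k) :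
    (j : ℝ) ≤ k ∧ (k = (j : ℝ) → ∀ r, 0 ≤ r → f r = r) := by
  obtain ⟨k0, rfl⟩ : ∃ k0, n = k0 + 2 := ⟨n - 2, by omega⟩
  have hj1 : (1 : ℝ) ≤ (j : ℝ) := by exact_mod_cast hj
  have hk0 : (0 : ℝ) ≤ (k0 : ℝ) := Nat.cast_nonneg k0
  have hlam : 0 < (j : ℝ) * ((j : ℝ) + (k0 : ℝ)) := by positivity
  have hode' : ∀ r, 0 < r →
      φ'' r + ((k0 : ℝ) + 1) * (f' r / f r) * φ' r
        = (j : ℝ) * ((j : ℝ) + (k0 : ℝ)) * φ r / (f r) ^ 2 := by
    intro r hr
    have h := hode r hr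
    push_cast at h
    have e1 : (k0 : ℝ) + 2 - 1 = (k0 : ℝ) + 1 := by ring
    have e2 : (j : ℝ) + ((k0 : ℝ) + 2) - 2 = (j : ℝ) + (k0 : ℝ) := by ring
    rw [e1, e2] at h
    exact h
  -- `φ` does not vanish identically near `0`
  have hne' : ∀ ε : ℝ, 0 < ε → ∃ r, 0 < r ∧ r < ε ∧ φ r ≠ 0 := by
    intro ε hε
    by_contra hcon
    have hz : ∀ r, 0 < r → r < ε → φ r = 0 := by
      intro r hr hrε
      by_contra hr0
      exact hcon ⟨r, hr, hrε, hr0⟩
    obtain ⟨r, hr, hr0⟩ := hne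
    exact hr0 (Vale.Agent.Helper6.P225Sign.zero_right hlam.le hfpos hf hφ hφ' hode' ε hε hz r hr)
  rcases Vale.Agent.Helper6.P225Sign.sign_of_ne hj hlam hf0 hf0' hfpos hf hφ hφ' hode' hreg hne'
    with hsign | hsign
  · exact Vale.Agent.Results.P225.GrowthCriterion.result (k0 + 2) j hn hj f f' φ φ' φ'' hf0 hf0'
      hfpos hconc hf hφ hφ' hode hreg ⟨1, one_pos, fun r hr _ => hsign r hr⟩ k hgrow
  · refine Vale.Agent.Results.P225.GrowthCriterion.result (k0 + 2) j hn hj f f'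
      (fun r => -φ r) (fun r => -φ' r) (fun r => -φ'' r) hf0 hf0' hfpos hconc hf
      (fun r hr => (hφ r hr).neg) (fun r hr => (hφ' r hr).neg) ?_ ?_
      ⟨1, one_pos, fun r hr _ => neg_pos.mpr (hsign r hr)⟩ k ?_
    · intro r hr
      have h := hode r hr
      linear_combination (-1 : ℝ) * h
    · obtain ⟨C, ε, hε, hC⟩ := hreg
      refine ⟨C, ε, hε, fun r hr hrε => ?_⟩
      simp only [abs_neg]
      exact hC r hr hrε
    · obtain ⟨C, hC⟩ := hgrow
      refine ⟨C, fun r hr => ?_⟩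
      simp only [abs_neg]
      exact hC r hr

end Vale.Agent.Results.P225.NonzeroModes
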