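import Mathlib
import Vale.Agent.Results.P225.NonzeroModes
import Vale.Agent.Helper6.P225Sign
import Vale.Agent.Helper6.P225Unique

/-!
P225 (Yau's dimension comparison for harmonic functions of polynomial growth): the radial
modes of a rotationally symmetric manifold, complete statement at the level of the radial
equation.

Let `n ≥ 2`, `j ≥ 1`, let `f` be the warping function of the metric `dr² + f(r)² g_{S^(n-1)}`
(`f 0 = 0`, right derivative `1` at `0`, positive and differentiable on `(0,∞)`), and let `φ`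
be a solution on `(0,∞)` of the radial equation `φ'' + (n-1) (f'/f) φ' = j (j+n-2) φ / f²` of
a mode of degree `j`, regular at `0` (`φ = O(r^j)`, `φ' = O(r^(j-1))`) and not identically
zero.  Then

1. `φ` has no zero on `(0,∞)`;
2. every solution `ψ` of the same equation that is regular at `0` is a constant multiple of
   `φ`: the regular modes of degree `j` form a space of dimension at most one;
3. if moreover `f` is concave on `[0,∞)` (nonnegative Ricci curvature) and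
   `|φ(r)| ≤ C (1+r)^k` for all `r ≥ 1`, with a real exponent `k`, then `j ≤ k`; and if
   `k = j`, then `f(r) = r` for all `r ≥ 0`.

Parts 1 and 2 are new compared with the other P225 hand-ins; part 3 is `P225.NonzeroModes`.
Proof of 2: the Wronskian `f^(n-1) (ψ φ' - ψ' φ)` is constant and tends to `0` at `0`.
-/

namespace Vale.Agent.Results.P225.ModeUniqueness

open Set

theorem result (n j : ℕ) (hn : 2 ≤ n) (hj : 1 ≤ j) (f f' φ φ' φ'' : ℝ → ℝ)
    (hf0 : f 0 = 0) (hf0' : HasDerivWithinAt f 1 (Ici 0) 0)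
    (hfpos : ∀ r, 0 < r → 0 < f r)
    (hf : ∀ r, 0 < r → HasDerivAt f (f' r) r)
    (hφ : ∀ r, 0 < r → HasDerivAt φ (φ' r) r)
    (hφ' : ∀ r, 0 < r → HasDerivAt φ' (φ'' r) r)
    (hode : ∀ r, 0 < r →
      φ'' r + ((n : ℝ) - 1) * (f' r / f r) * φ' r
        = (j : ℝ) * ((j : ℝ) + n - 2) * φ r / (f r) ^ 2)
    (hreg : ∃ C ε : ℝ, 0 < ε ∧ ∀ r, 0 < r → r < ε →
      |φ r| ≤ C * r ^ j ∧ |φ' r| ≤ C * r ^ (j - 1))
    (hne : ∃ r : ℝ, 0 < r ∧ φ r ≠ 0) :
    (∀ r, 0 < r → φ r ≠ 0) ∧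
    (∀ ψ ψ' ψ'' : ℝ → ℝ,
      (∀ r, 0 < r → HasDerivAt ψ (ψ' r) r) →
      (∀ r, 0 < r → HasDerivAt ψ' (ψ'' r) r) →
      (∀ r, 0 < r →
        ψ'' r + ((n : ℝ) - 1) * (f' r / f r) * ψ' r
          = (j : ℝ) * ((j : ℝ) + n - 2) * ψ r / (f r) ^ 2) →
      (∃ C ε : ℝ, 0 < ε ∧ ∀ r, 0 < r → r < ε →
        |ψ r| ≤ C * r ^ j ∧ |ψ' r| ≤ C * r ^ (j - 1)) →
      ∃ c : ℝ, ∀ r, 0 < r → ψ r = c * φ r) ∧
    (ConcaveOn ℝ (Ici 0) f →
      ∀ k : ℝ, (∃ C : ℝ, ∀ r, 1 ≤ r → |φ r| ≤ C * (1 + r) ^ k) →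
        (j : ℝ) ≤ k ∧ (k = (j : ℝ) → ∀ r, 0 ≤ r → f r = r)) := by
  obtain ⟨k0, rfl⟩ : ∃ k0, n = k0 + 2 := ⟨n - 2, by omega⟩
  have hj1 : (1 : ℝ) ≤ (j : ℝ) := by exact_mod_cast hj
  have hk0 : (0 : ℝ) ≤ (k0 : ℝ) := Nat.cast_nonneg k0
  have hlam : 0 < (j : ℝ) * ((j : ℝ) + (k0 : ℝ)) := by positivity
  have conv : ∀ u u' u'' : ℝ → ℝ,
      (∀ r, 0 < r →
        u'' r + (((k0 + 2 : ℕ) : ℝ) - 1) * (f' r / f r) * u' r
          = (j : ℝ) * ((j : ℝ) + ((k0 + 2 : ℕ) : ℝ) - 2) * u r / (f r) ^ 2) →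
      ∀ r, 0 < r →
        u'' r + ((k0 : ℝ) + 1) * (f' r / f r) * u' r
          = (j : ℝ) * ((j : ℝ) + (k0 : ℝ)) * u r / (f r) ^ 2 := by
    intro u u' u'' h r hr
    have h1 := h r hr
    push_cast at h1
    have e1 : (k0 : ℝ) + 2 - 1 = (k0 : ℝ) + 1 := by ring
    have e2 : (j : ℝ) + ((k0 : ℝ) + 2) - 2 = (j : ℝ) + (k0 : ℝ) := by ring
    rw [e1, e2] at h1
    exact h1
  have hode' := conv φ φ' φ'' hode
  -- `φ` does not vanish identically near `0`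
  have hne' : ∀ ε : ℝ, 0 < ε → ∃ r, 0 < r ∧ r < ε ∧ φ r ≠ 0 := by
    intro ε hε
    by_contra hcon
    have hz : ∀ r, 0 < r → r < ε → φ r = 0 := by
      intro r hr hrε
      by_contra hr0
      exact hcon ⟨r, hr, hrε, hr0⟩
    obtain ⟨r, hr, hr0⟩ := hne
    exact hr0 (Vale.Agent.Helper6.P225Sign.zero_right hlam.le hfpos hf hφ hφ' hode' ε hε hz r hr)
  have hφne : ∀ r, 0 < r → φ r ≠ 0 := by
    rcases Vale.Agent.Helper6.P225Sign.sign_of_ne hj hlam hf0 hf0' hfpos hf hφ hφ' hode' hreg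
      hne' with hsign | hsign
    · exact fun r hr => (hsign r hr).ne'
    · exact fun r hr => (hsign r hr).ne
  refine ⟨hφne, ?_, ?_⟩
  · intro ψ ψ' ψ'' hψ hψ' hodeψ hregψ
    exact Vale.Agent.Helper6.P225Unique.proportional hj hf0 hf0' hfpos hf hψ hψ'
      (conv ψ ψ' ψ'' hodeψ) hregψ hφ hφ' hode' hreg hφne
  · intro hconc k hgrow
    exact Vale.Agent.Results.P225.NonzeroModes.result (k0 + 2) j hn hj f f' φ φ' φ'' hf0 hf0'
      hfpos hconc hf hφ hφ' hode hreg hne k hgrow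

end Vale.Agent.Results.P225.ModeUniqueness
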